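import Vale.Agent.Lib.P046.Law

/-!
# P046: a drift inequality and an explicit envelope for the expected number of triangles,
valid during the whole random triangle removal process

Let `G_0 = K_n, G_1, G_2, ...` be the random triangle removal process, `T_j` the number of triangles
of `G_j`, `N = C(n,2)` and `m = N - 3 j`.
1. For every graph with `T ≥ 1` triangles and `e` edges, the expected number of triangles after the
   removal of a uniformly random triangle is at most `T - 9 T / e + 2`.
2. `E T_j ≤ (C(n,3) - N/3) m (m-3) (m-6) / (N (N-3) (N-6)) + m / 3` whenever `m ≥ 9`.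
3. Almost surely `G_j` has no triangle or has exactly `m` edges.
-/

namespace Vale.Agent.Results.P046.TriangleEnvelope

open Finset Vale.Agent.Lib.P046

open Classical in
theorem running_card {n : ℕ} (j : ℕ) : ∀ E : St n,
    (stepE^[j] (fun E' : St n => if tri E' ≠ ∅ ∧ E'.card + 3 * j ≠ E.card then (1 : ℝ) else 0)) E
      = 0 := by
  induction j with
  | zero =>
    intro E
    simp
  | succ j ih =>
    intro E
    by_cases h : tri E = ∅
    · rw [iterate_stop _ h]
      simp [h]
    · rw [Function.iterate_succ_apply', stepE_of_ne _ h]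
      have : ∀ t ∈ tri E, (stepE^[j] (fun E' : St n =>
          if tri E' ≠ ∅ ∧ E'.card + 3 * (j + 1) ≠ E.card then (1 : ℝ) else 0)) (E \ ed t) = 0 := by
        intro t ht
        have hc := card_sdiff_ed ht
        have hfun : (fun E' : St n =>
            if tri E' ≠ ∅ ∧ E'.card + 3 * (j + 1) ≠ E.card then (1 : ℝ) else 0)
            = (fun E' : St n =>
            if tri E' ≠ ∅ ∧ E'.card + 3 * j ≠ (E \ ed t).card then (1 : ℝ) else 0) := by
          funext E'
          have : (E'.card + 3 * (j + 1) ≠ E.card) ↔ (E'.card + 3 * j ≠ (E \ ed t).card) := by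
            constructor <;> intro h1 h2 <;> apply h1 <;> omega
          simp only [this]
        rw [hfun]
        exact ih _
      rw [sum_eq_zero this, zero_div]

open Classical in
theorem result :
    (∀ (n : ℕ) (E : St n), tri E ≠ ∅ →
      EX (kernel E) (fun E' => ((tri E').card : ℝ))
        ≤ ((tri E).card : ℝ) - 9 * ((tri E).card : ℝ) / (E.card : ℝ) + 2) ∧
    (∀ n j : ℕ, 3 * j + 9 ≤ n.choose 2 →
      EX (law n j) (fun E => ((tri E).card : ℝ))
        ≤ ((n.choose 3 : ℝ) - (n.choose 2 : ℝ) / 3)
            * (Pc ((n.choose 2 : ℝ) - 3 * j) / Pc (n.choose 2 : ℝ))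
          + ((n.choose 2 : ℝ) - 3 * j) / 3) ∧
    (∀ n j : ℕ,
      EX (law n j) (fun E => if tri E ≠ ∅ ∧ E.card + 3 * j ≠ n.choose 2 then (1 : ℝ) else 0) = 0) := by
  refine ⟨fun n E h => ?_, fun n j h => ?_, fun n j => ?_⟩
  · rw [EX_kernel]
    exact drift h
  · rw [EX_law]
    have := envelope j (complete n) (by rw [card_complete]; exact h)
    unfold Tf at this
    rw [card_complete, card_tri_complete] at this
    exact this
  · rw [EX_law]
    have := running_card j (complete n)
    rw [card_complete] at this
    exact this

end Vale.Agent.Results.P046.TriangleEnvelope
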